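import Crest.Agent.R330.IMat
import Crest.Agent.R330.IU
import Crest.Agent.R330.IFA

/-!
# Row 330, Br/A: the colour algebra of a `ColorBasis`
-/

set_option autoImplicit false
set_option linter.unusedSectionVars false

noncomputable section

open MeasureTheory Filter Topology
open scoped InnerProductSpace ContDiff Matrix
open Crest.MathPhysics.MatrixQM

namespace Crest.Agent.R330

/-- The special unitary group. -/
abbrev SU (N : ℕ) := Matrix.specialUnitaryGroup (Fin N) ℂ

instance (N : ℕ) : IsTopologicalGroup (SU N) where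
  continuous_mul := continuous_mul
  continuous_inv := by
    refine continuous_induced_rng.2 ?_
    exact continuous_star.comp continuous_subtype_val

instance (N : ℕ) : CompactSpace (SU N) := by
  have h1 : IsCompact ((Matrix.unitaryGroup (Fin N) ℂ : Set (Matrix (Fin N) (Fin N) ℂ))) :=
    isCompact_iff_compactSpace.2 (unitaryGroup_compact (Fin N))
  have h2 : IsClosed {A : Matrix (Fin N) (Fin N) ℂ | A.det = 1} :=
    isClosed_eq (Continuous.matrix_det continuous_id) continuous_const
  have h3 : IsCompact ((Matrix.specialUnitaryGroup (Fin N) ℂ : Set (Matrix (Fin N) (Fin N) ℂ))) :=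
    h1.inter_right h2
  exact isCompact_iff_compactSpace.1 h3

instance (N : ℕ) : MeasurableSpace (SU N) := borel _
instance (N : ℕ) : BorelSpace (SU N) := ⟨rfl⟩

/-- Colour space. -/
abbrev EE (N : ℕ) := EuclideanSpace ℝ (Fin (N ^ 2 - 1))

namespace Br

variable {N : ℕ} (b : ColorBasis N)

/-- The matrix with coordinates `v`. -/
def mT : EE N →ₗ[ℝ] Matrix (Fin N) (Fin N) ℂ where
  toFun v := ∑ A, v A • b.T A
  map_add' u v := by simp [add_smul, Finset.sum_add_distrib]
  map_smul' r v := by simp [Finset.smul_sum, mul_smul]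

/-- The coordinates of a matrix. -/
def co : Matrix (Fin N) (Fin N) ℂ →ₗ[ℝ] EE N where
  toFun X := WithLp.toLp 2 fun A => (b.T A * X).trace.re
  map_add' X Y := by ext A; simp [Matrix.mul_add]
  map_smul' r X := by ext A; simp

theorem mT_apply (v : EE N) : mT b v = ∑ A, v A • b.T A := rfl

theorem co_apply (X : Matrix (Fin N) (Fin N) ℂ) (A : Fin (N ^ 2 - 1)) :
    co b X A = (b.T A * X).trace.re := rfl

theorem co_mT (v : EE N) : co b (mT b v) = v := by
  ext A
  rw [co_apply, mT_apply, Matrix.mul_sum, Matrix.trace_sum, Complex.re_sum]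
  simp only [Matrix.mul_smul, Matrix.trace_smul, b.orthonormal]
  rw [Finset.sum_eq_single A]
  · simp
  · intro B _ hB
    simp [Ne.symm hB]
  · simp

theorem mT_herm (v : EE N) : (mT b v).IsHermitian := by
  rw [mT_apply]
  unfold Matrix.IsHermitian
  rw [Matrix.conjTranspose_sum]
  refine Finset.sum_congr rfl fun A _ => ?_
  rw [Matrix.conjTranspose_smul, (b.herm A).eq]
  simp

theorem mT_trace (v : EE N) : (mT b v).trace = 0 := by
  rw [mT_apply, Matrix.trace_sum]
  simp [b.traceless]

theorem inner_co (u : EE N) (X : Matrix (Fin N) (Fin N) ℂ) :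
    ⟪u, co b X⟫_ℝ = (mT b u * X).trace.re := by
  rw [mT_apply, Matrix.sum_mul, Matrix.trace_sum, Complex.re_sum, PiLp.inner_apply]
  refine Finset.sum_congr rfl fun A _ => ?_
  simp [co_apply, mul_comm]

theorem inner_mT (u v : EE N) : ⟪u, v⟫_ℝ = (mT b u * mT b v).trace.re := by
  rw [← inner_co, co_mT]

theorem mT_injective : Function.Injective (mT b) := fun u v h => by
  rw [← co_mT b u, h, co_mT]

/-- Traceless Hermitian matrices. -/
def HT (N : ℕ) : Submodule ℝ (Matrix (Fin N) (Fin N) ℂ) where
  carrier := {A | A.IsHermitian ∧ A.trace = 0}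
  add_mem' := fun ha hb => ⟨ha.1.add hb.1, by rw [Matrix.trace_add, ha.2, hb.2, add_zero]⟩
  zero_mem' := ⟨Matrix.isHermitian_zero, Matrix.trace_zero _ _⟩
  smul_mem' := fun r A hA => ⟨by
    unfold Matrix.IsHermitian
    rw [Matrix.conjTranspose_smul, hA.1.eq]; simp, by rw [Matrix.trace_smul, hA.2, smul_zero]⟩

/-- The real encoding `re + im` of a Hermitian matrix. -/
def enc (N : ℕ) : HT N →ₗ[ℝ] Matrix (Fin N) (Fin N) ℝ where
  toFun A := Matrix.of fun a c => (A.1 a c).re + (A.1 a c).im
  map_add' A B := by ext a c; simp; ring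
  map_smul' r A := by ext a c; simp; ring

theorem finrank_HT (hN : 1 ≤ N) : Module.finrank ℝ (HT N) ≤ N ^ 2 - 1 := by
  have hinj : Function.Injective (enc N) := by
    rw [injective_iff_map_eq_zero]
    intro A hA
    ext a c
    have h1 := congrFun (congrFun hA a) c
    have h2 := congrFun (congrFun hA c) a
    have h3 : A.1 c a = star (A.1 a c) := (A.2.1.apply c a).symm
    simp only [enc, LinearMap.coe_mk, AddHom.coe_mk, Matrix.of_apply, Matrix.zero_apply] at h1 h2
    rw [h3] at h2
    simp only [Complex.star_def, Complex.conj_re, Complex.conj_im] at h2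
    apply Complex.ext <;> simp <;> linarith
  have hne : LinearMap.range (enc N) ≠ ⊤ := by
    intro h
    obtain ⟨A, hA⟩ : (1 : Matrix (Fin N) (Fin N) ℝ) ∈ LinearMap.range (enc N) := by
      rw [h]; trivial
    have h1 : (enc N A).trace = 0 := by
      have h2 := A.2.2
      have h3 : (enc N A).trace = (A.1.trace).re + (A.1.trace).im := by
        simp [Matrix.trace, enc, Finset.sum_add_distrib]
      rw [h3, h2]; simp
    rw [hA] at h1
    simp at h1
    omega
  have h1 := Submodule.finrank_lt hne
  rw [LinearMap.finrank_range_of_inj hinj, Module.finrank_matrix] at h1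
  simp only [Fintype.card_fin, Module.finrank_self, mul_one] at h1
  have : N ^ 2 = N * N := sq N
  omega

theorem mT_co (hN : 1 ≤ N) {X : Matrix (Fin N) (Fin N) ℂ} (h1 : X.IsHermitian) (h2 : X.trace = 0) :
    mT b (co b X) = X := by
  let f : EE N →ₗ[ℝ] HT N := (mT b).codRestrict (HT N) fun v => ⟨mT_herm b v, mT_trace b v⟩
  have hf : Function.Injective f := fun u v h => mT_injective b (congrArg Subtype.val h)
  have hd : Module.finrank ℝ (EE N) = Module.finrank ℝ (HT N) := by
    apply le_antisymm (LinearMap.finrank_le_finrank_of_injective hf)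
    simpa using finrank_HT hN
  obtain ⟨v, hv⟩ := (LinearMap.injective_iff_surjective_of_finrank_eq_finrank hd).1 hf ⟨X, h1, h2⟩
  have hv' : mT b v = X := congrArg Subtype.val hv
  rw [← hv', co_mT]

/-- The bracket `i [X, Y]` in coordinates. -/
def brT : EE N →ₗ[ℝ] EE N →ₗ[ℝ] EE N :=
  LinearMap.mk₂ ℝ (fun u v => co b (Complex.I • (mT b u * mT b v - mT b v * mT b u)))
    (fun u u' v => by
      rw [← map_add, ← smul_add, map_add]; congr 2; noncomm_ring)
    (fun r u v => by
      rw [← map_smul, (mT b).map_smul, smul_comm r, smul_sub r, Matrix.smul_mul, Matrix.mul_smul])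
    (fun u v v' => by
      rw [← map_add, ← smul_add, map_add]; congr 2; noncomm_ring)
    (fun r u v => by
      rw [← map_smul, (mT b).map_smul, smul_comm r, smul_sub r, Matrix.smul_mul, Matrix.mul_smul])

theorem brT_apply (u v : EE N) :
    brT b u v = co b (Complex.I • (mT b u * mT b v - mT b v * mT b u)) := rfl

theorem mT_brT (hN : 1 ≤ N) (u v : EE N) :
    mT b (brT b u v) = Complex.I • (mT b u * mT b v - mT b v * mT b u) := by
  rw [brT_apply]
  apply mT_co b hN
  · unfold Matrix.IsHermitian
    rw [Matrix.conjTranspose_smul, Matrix.conjTranspose_sub, Matrix.conjTranspose_mul,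
      Matrix.conjTranspose_mul, (mT_herm b u).eq, (mT_herm b v).eq]
    simp only [Complex.star_def, Complex.conj_I, neg_smul, ← smul_neg, neg_sub]
  · rw [Matrix.trace_smul, Matrix.trace_sub, Matrix.trace_mul_comm]; simp

/-- The Lie algebra `su(N)` in coordinates. -/
def lieT (hN : 1 ≤ N) : Lie (EE N) where
  br := brT b
  anti x y := by
    rw [brT_apply, brT_apply, ← map_neg, ← smul_neg, neg_sub]
  inv x y z := by
    rw [inner_mT b, inner_mT b, mT_brT b hN, mT_brT b hN]
    congr 1
    rw [Matrix.smul_mul, Matrix.mul_smul, Matrix.trace_smul, Matrix.trace_smul, Matrix.sub_mul,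
      Matrix.mul_sub, Matrix.trace_sub, Matrix.trace_sub, Matrix.mul_assoc,
      Matrix.trace_mul_comm (mT b y * mT b x), ← Matrix.mul_assoc (mT b z),
      Matrix.trace_mul_comm (mT b z * mT b y)]
  jac x y z := by
    apply mT_injective b
    simp only [map_add, mT_brT b hN, Matrix.smul_mul, Matrix.mul_smul, ← smul_sub, ← smul_add]
    congr 2
    noncomm_ring

/-- The matrix realisation. -/
def matT (hN : 1 ≤ N) : MatSys N (lieT b hN) where
  m := mT b
  herm := mT_herm b
  traceless := mT_trace b
  inner := inner_mT b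
  br := mT_brT b hN
  surj A h1 h2 := ⟨co b A, mT_co b hN h1 h2⟩

end Br

end Crest.Agent.R330

end
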