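import Crest.Agent.R330.Br.A

/-!
# Row 330, Br/B: the adjoint action of `SU(N)`
-/

set_option autoImplicit false
set_option linter.unusedSectionVars false

noncomputable section

open MeasureTheory Filter Topology
open scoped InnerProductSpace ContDiff Matrix
open Crest.MathPhysics.MatrixQM

namespace Crest.Agent.R330

namespace Br

variable {N : ℕ} (b : ColorBasis N)

theorem su_star_mul (g : SU N) :
    star (g : Matrix (Fin N) (Fin N) ℂ) * (g : Matrix (Fin N) (Fin N) ℂ) = 1 := g.2.1.1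

theorem su_mul_star (g : SU N) :
    (g : Matrix (Fin N) (Fin N) ℂ) * star (g : Matrix (Fin N) (Fin N) ℂ) = 1 := g.2.1.2

/-- Conjugation in coordinates. -/
def cj (g : Matrix (Fin N) (Fin N) ℂ) : EE N →ₗ[ℝ] EE N where
  toFun v := co b (g * mT b v * star g)
  map_add' u v := by simp [Matrix.mul_add, Matrix.add_mul]
  map_smul' r v := by simp

theorem cj_apply (g : Matrix (Fin N) (Fin N) ℂ) (v : EE N) :
    cj b g v = co b (g * mT b v * star g) := rfl

theorem mT_cj (hN : 1 ≤ N) (g : SU N) (v : EE N) :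
    mT b (cj b g v) = (g : Matrix (Fin N) (Fin N) ℂ) * mT b v * star (g : Matrix (Fin N) (Fin N) ℂ) := by
  rw [cj_apply]
  apply mT_co b hN
  · exact Matrix.isHermitian_mul_mul_conjTranspose _ (mT_herm b v)
  · rw [Matrix.trace_mul_cycle, su_star_mul, Matrix.one_mul, mT_trace]

theorem cj_mul (hN : 1 ≤ N) (g h : SU N) (v : EE N) :
    cj b ((g * h : SU N) : Matrix (Fin N) (Fin N) ℂ) v = cj b g (cj b h v) := by
  apply mT_injective b
  rw [mT_cj b hN, mT_cj b hN, mT_cj b hN]
  simp [Matrix.mul_assoc]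

theorem cj_one (v : EE N) : cj b ((1 : SU N) : Matrix (Fin N) (Fin N) ℂ) v = v := by
  simp [cj_apply, co_mT]

theorem inner_cj (hN : 1 ≤ N) (g : SU N) (u v : EE N) : ⟪cj b g u, cj b g v⟫_ℝ = ⟪u, v⟫_ℝ := by
  rw [inner_mT b, inner_mT b, mT_cj b hN, mT_cj b hN]
  congr 1
  have h1 : (g : Matrix (Fin N) (Fin N) ℂ) * mT b u * star (g : Matrix (Fin N) (Fin N) ℂ) *
      ((g : Matrix (Fin N) (Fin N) ℂ) * mT b v * star (g : Matrix (Fin N) (Fin N) ℂ)) =
      (g : Matrix (Fin N) (Fin N) ℂ) * (mT b u * mT b v) * star (g : Matrix (Fin N) (Fin N) ℂ) := by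
    simp only [Matrix.mul_assoc]
    rw [← Matrix.mul_assoc (star _) (g : Matrix (Fin N) (Fin N) ℂ), su_star_mul, Matrix.one_mul]
  rw [h1, Matrix.trace_mul_cycle, su_star_mul, Matrix.one_mul]

/-- Conjugation as an isometric equivalence. -/
def actE (hN : 1 ≤ N) (g : SU N) : EE N ≃ₗᵢ[ℝ] EE N where
  toLinearEquiv := LinearEquiv.ofLinearMap (cj b g) (cj b ((g⁻¹ : SU N) : Matrix (Fin N) (Fin N) ℂ))
    (by ext1 v; simp only [LinearMap.comp_apply, ← cj_mul b hN, mul_inv_cancel, cj_one,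
      LinearMap.id_apply])
    (by ext1 v; simp only [LinearMap.comp_apply, ← cj_mul b hN, inv_mul_cancel, cj_one,
      LinearMap.id_apply])
  norm_map' v := by
    change ‖cj b g v‖ = ‖v‖
    rw [@norm_eq_sqrt_real_inner, inner_cj b hN, ← @norm_eq_sqrt_real_inner]

theorem actE_apply (hN : 1 ≤ N) (g : SU N) (v : EE N) : actE b hN g v = cj b g v := rfl

/-- The adjoint action. -/
def actT (hN : 1 ≤ N) : SU N →* (EE N ≃ₗᵢ[ℝ] EE N) where
  toFun := actE b hN
  map_one' := by ext1 v; rw [actE_apply, cj_one]; rfl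
  map_mul' g h := by ext1 v; rw [actE_apply, cj_mul b hN]; rfl

theorem actT_apply (hN : 1 ≤ N) (g : SU N) (v : EE N) : actT b hN g v = cj b g v := rfl

theorem continuous_actT (hN : 1 ≤ N) : Continuous fun p : SU N × EE N => actT b hN p.1 p.2 := by
  simp only [actT_apply, cj_apply]
  have h1 : Continuous (co b) := (co b).continuous_of_finiteDimensional
  have h2 : Continuous (mT b) := (mT b).continuous_of_finiteDimensional
  refine h1.comp ?_
  have h3 : Continuous fun p : SU N × EE N => (p.1 : Matrix (Fin N) (Fin N) ℂ) :=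
    continuous_subtype_val.comp continuous_fst
  exact (h3.mul (h2.comp continuous_snd)).mul h3.star

theorem exists_diag {A : Matrix (Fin N) (Fin N) ℂ} (hA : A.IsHermitian) :
    ∃ (u : Matrix.unitaryGroup (Fin N) ℂ) (d : Fin N → ℝ),
      A = (u : Matrix (Fin N) (Fin N) ℂ) * Matrix.diagonal (fun a => (d a : ℂ)) *
        star (u : Matrix (Fin N) (Fin N) ℂ) := by
  refine ⟨hA.eigenvectorUnitary, hA.eigenvalues, ?_⟩
  conv_lhs => rw [hA.spectral_theorem, Unitary.conjStarAlgAut_apply]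
  rfl

theorem exp_I_diag (d : Fin N → ℝ) :
    NormedSpace.exp (Complex.I • Matrix.diagonal (fun a => (d a : ℂ))) =
      Matrix.diagonal fun a => Complex.exp (Complex.I * d a) := by
  rw [← Matrix.diagonal_smul, Matrix.exp_diagonal]
  congr 1
  ext a
  rw [Pi.coe_exp, Complex.exp_eq_exp_ℂ]
  rfl

theorem exp_conj_unitary (u : Matrix.unitaryGroup (Fin N) ℂ) (A : Matrix (Fin N) (Fin N) ℂ) :
    NormedSpace.exp ((u : Matrix (Fin N) (Fin N) ℂ) * A * star (u : Matrix (Fin N) (Fin N) ℂ)) =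
      (u : Matrix (Fin N) (Fin N) ℂ) * NormedSpace.exp A * star (u : Matrix (Fin N) (Fin N) ℂ) := by
  have h1 : ((u : Matrix (Fin N) (Fin N) ℂ))⁻¹ = star (u : Matrix (Fin N) (Fin N) ℂ) :=
    Matrix.inv_eq_left_inv u.2.1
  rw [← h1]
  exact Matrix.exp_conj _ _ ⟨⟨u, star u, u.2.2, u.2.1⟩, rfl⟩

theorem det_exp_I {A : Matrix (Fin N) (Fin N) ℂ} (hA : A.IsHermitian) (h0 : A.trace = 0) :
    (NormedSpace.exp (Complex.I • A)).det = 1 := by
  obtain ⟨u, d, rfl⟩ := exists_diag hA
  rw [Matrix.trace_mul_cycle, u.2.1, Matrix.one_mul, Matrix.trace_diagonal] at h0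
  rw [← Matrix.smul_mul, ← Matrix.mul_smul, exp_conj_unitary, exp_I_diag, Matrix.det_mul_comm,
    ← Matrix.mul_assoc, u.2.1, Matrix.one_mul, Matrix.det_diagonal, ← Complex.exp_sum,
    ← Finset.mul_sum, h0]
  simp

/-- The exponential `exp (i ξ)` in `SU(N)`. -/
def kx (ξ : EE N) : SU N :=
  ⟨NormedSpace.exp (Complex.I • mT b ξ), exp_I_mem_unitary (mT_herm b ξ),
    det_exp_I (mT_herm b ξ) (mT_trace b ξ)⟩

theorem kx_coe (ξ : EE N) :
    (kx b ξ : Matrix (Fin N) (Fin N) ℂ) = NormedSpace.exp (Complex.I • mT b ξ) := rfl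

theorem star_exp_I {A : Matrix (Fin N) (Fin N) ℂ} (hA : A.IsHermitian) :
    star (NormedSpace.exp (Complex.I • A)) = NormedSpace.exp (-(Complex.I • A)) := by
  rw [Matrix.star_eq_conjTranspose, ← Matrix.exp_conjTranspose, Matrix.conjTranspose_smul, hA.eq]
  simp

theorem act_kx (hN : 1 ≤ N) (ξ v : EE N) :
    actT b hN (kx b ξ) v = rexp' ((lieT b hN).br ξ) v := by
  apply mT_injective b
  rw [actT_apply, mT_cj b hN, map_rexp'_br (𝔤 := lieT b hN) (mT b) (mT_brT b hN), kx_coe,
    star_exp_I (mT_herm b ξ)]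

theorem exists_exp_of (hN : 1 ≤ N) (k : SU N) :
    ∃ ξ : EE N, ∀ v, actT b hN k v = rexp' ((lieT b hN).br ξ) v := by
  obtain ⟨h, hh, hk, -⟩ := exists_exp_unitary (n := Fin N) ⟨k, k.2.1⟩
  have hN' : (N : ℂ) ≠ 0 := by exact_mod_cast (by omega : N ≠ 0)
  set t : ℝ := h.trace.re / N with ht
  have htr : h.trace = (h.trace.re : ℂ) := by
    have h1 : star h.trace = h.trace := by rw [← Matrix.trace_conjTranspose, hh.eq]
    exact (Complex.conj_eq_iff_re.1 h1).symm
  have h1 : (h - (t : ℂ) • (1 : Matrix (Fin N) (Fin N) ℂ)).IsHermitian := by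
    refine hh.sub ?_
    unfold Matrix.IsHermitian
    rw [Matrix.conjTranspose_smul]; simp
  have h2 : (h - (t : ℂ) • (1 : Matrix (Fin N) (Fin N) ℂ)).trace = 0 := by
    rw [Matrix.trace_sub, Matrix.trace_smul, Matrix.trace_one, htr, ht]
    simp only [Fintype.card_fin, smul_eq_mul]
    push_cast
    field_simp
    ring
  refine ⟨co b (h - (t : ℂ) • 1), fun v => ?_⟩
  rw [← act_kx b hN]
  apply mT_injective b
  rw [actT_apply, actT_apply, mT_cj b hN, mT_cj b hN, kx_coe, mT_co b hN h1 h2]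
  have h3 : (k : Matrix (Fin N) (Fin N) ℂ) = Complex.exp (Complex.I * t) •
      NormedSpace.exp (Complex.I • (h - (t : ℂ) • (1 : Matrix (Fin N) (Fin N) ℂ))) := by
    have h4 : Complex.I • h = Complex.I • (h - (t : ℂ) • (1 : Matrix (Fin N) (Fin N) ℂ)) +
        Complex.I • Matrix.diagonal (fun _ : Fin N => (t : ℂ)) := by
      rw [← smul_add, ← Matrix.smul_one_eq_diagonal, sub_add_cancel]
    have h5 : (k : Matrix (Fin N) (Fin N) ℂ) = NormedSpace.exp (Complex.I • h) := hk
    rw [h5, h4, Matrix.exp_add_of_commute, exp_I_diag, ← Matrix.smul_one_eq_diagonal,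
      Matrix.mul_smul, Matrix.mul_one]
    rw [← Matrix.smul_one_eq_diagonal, smul_smul]
    exact (Commute.one_right _).smul_right _
  rw [h3, star_smul, Matrix.smul_mul, Matrix.smul_mul, Matrix.mul_smul, smul_smul]
  have h6 : Complex.exp (Complex.I * t) * star (Complex.exp (Complex.I * t)) = 1 := by
    rw [Complex.star_def, ← Complex.exp_conj, ← Complex.exp_add]
    simp
  rw [h6, one_smul]

instance (N : ℕ) : SecondCountableTopology (SU N) := by
  have : SecondCountableTopology (Matrix (Fin N) (Fin N) ℂ) :=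
    inferInstanceAs (SecondCountableTopology (Fin N → Fin N → ℂ))
  exact TopologicalSpace.Subtype.secondCountableTopology _

/-- The group data. -/
def grpT (hN : 1 ≤ N) : Grp (lieT b hN) (SU N) where
  act := actT b hN
  cont := continuous_actT b hN
  exp_of := exists_exp_of b hN
  of_exp ξ := ⟨kx b ξ, act_kx b hN ξ⟩
  μ := (exists_haar (SU N)).choose
  prob := (exists_haar (SU N)).choose_spec.1
  left := (exists_haar (SU N)).choose_spec.2.1
  right := (exists_haar (SU N)).choose_spec.2.2.1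
  pos := (exists_haar (SU N)).choose_spec.2.2.2

end Br

end Crest.Agent.R330

end
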