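import Crest.Agent.R330.Br.B

/-!
# Row 330, Br/C: abstract lemmas on spin lifts
-/

set_option autoImplicit false
set_option linter.unusedSectionVars false

noncomputable section

open MeasureTheory Filter Topology
open scoped InnerProductSpace ContDiff Matrix
open Crest.MathPhysics.MatrixQM

namespace Crest.Agent.R330

namespace Br

variable {E F : Type} [NormedAddCommGroup E] [InnerProductSpace ℝ E] [FiniteDimensional ℝ E]
  [NormedAddCommGroup F] [InnerProductSpace ℂ F] [FiniteDimensional ℂ F]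

theorem exp_add_clm {X Y : F →L[ℂ] F} (h : Commute X Y) :
    NormedSpace.exp (X + Y) = NormedSpace.exp X * NormedSpace.exp Y := by
  let _ : NormedAlgebra ℚ (F →L[ℂ] F) := NormedAlgebra.restrictScalars ℚ ℂ _
  exact NormedSpace.exp_add_of_commute h

theorem exp_neg_mul (X : F →L[ℂ] F) : NormedSpace.exp (-X) * NormedSpace.exp X = 1 := by
  rw [← exp_add_clm (Commute.refl X).neg_left, neg_add_cancel, NormedSpace.exp_zero]

theorem exp_mul_neg (X : F →L[ℂ] F) : NormedSpace.exp X * NormedSpace.exp (-X) = 1 := by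
  rw [← exp_add_clm (Commute.refl X).neg_right, add_neg_cancel, NormedSpace.exp_zero]

theorem exp_conj_clm {U V X Y : F →L[ℂ] F} (h1 : U * V = 1) (h2 : V * U = 1) (h : U * X = Y * U) :
    U * NormedSpace.exp X = NormedSpace.exp Y * U := by
  let _ : NormedAlgebra ℚ (F →L[ℂ] F) := NormedAlgebra.restrictScalars ℚ ℂ _
  have h3 := NormedSpace.exp_units_conj (⟨U, V, h1, h2⟩ : (F →L[ℂ] F)ˣ) X
  change NormedSpace.exp (U * X * V) = U * NormedSpace.exp X * V at h3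
  rw [h, mul_assoc, h1, mul_one] at h3
  rw [h3, mul_assoc, h2, mul_one]

theorem exp_scalar (z : ℂ) :
    NormedSpace.exp (z • (1 : F →L[ℂ] F)) = Complex.exp z • (1 : F →L[ℂ] F) := by
  rw [← Algebra.algebraMap_eq_smul_one, ← Algebra.algebraMap_eq_smul_one,
    ← NormedSpace.algebraMap_exp_comm, Complex.exp_eq_exp_ℂ]

theorem lift_apply {E' : Type} [NormedAddCommGroup E'] [InnerProductSpace ℝ E']
    [FiniteDimensional ℝ E'] {n : ℕ} (L : E →ₗ[ℝ] E') (x : T n E) (a : Fin n) :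
    lift n L x a = L (x a) := rfl

/-- A generator with `J³ = -J` exponentiates to the identity at `2π` on the spinors. -/
theorem exp_two_pi_S (C : Cl (Th E) F) {J : E →ₗ[ℝ] E} (hJ : IsSkew J)
    (h3 : ∀ v, J (J (J v)) = -J v) :
    NormedSpace.exp (((2 * Real.pi : ℝ) : ℂ) • C.S (lift 16 J)) = 1 := by
  let H : Submodule ℝ E := LinearMap.range J
  let J' : H →ₗ[ℝ] H := J.restrict (p := H) (q := H) fun x _ => ⟨x, rfl⟩
  have hJ' : IsSkew J' := fun u v => hJ u v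
  have hcx : IsCx (lift 16 J') := by
    refine ⟨isSkew_lift hJ', fun v => ?_⟩
    ext a : 1
    apply Subtype.ext
    obtain ⟨w, hw⟩ := (v a).2
    change J (J (v a : E)) = -(v a : E)
    rw [← hw, h3]
  have hS : (C.comap (liftI 16 H.subtypeₗᵢ)).S (lift 16 J') = C.S (lift 16 J) := by
    rw [Cl.S_comap]
    congr 1
    change lift 16 H.subtype ∘ₗ lift 16 J' ∘ₗ LinearMap.adjoint (lift 16 H.subtype) = _
    rw [adjoint_lift, ← lift_comp, ← lift_comp]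
    congr 1
    ext1 v
    change J (LinearMap.adjoint H.subtype v : H) = J v
    apply ext_inner_right ℝ
    intro w
    rw [hJ, hJ]
    congr 1
    have h1 := LinearMap.adjoint_inner_left H.subtype (⟨J w, ⟨w, rfl⟩⟩ : H) v
    exact h1
  have h1 := (C.comap (liftI 16 H.subtypeₗᵢ)).exp_num hcx
  have h2 : ((2 * Real.pi : ℝ) : ℂ) • C.S (lift 16 J) =
      -((2 * Real.pi * Complex.I) • (C.comap (liftI 16 H.subtypeₗᵢ)).num (lift 16 J')) +
        (((4 * Module.finrank ℝ H : ℕ) : ℂ) * (2 * Real.pi * Complex.I)) • 1 := by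
    rw [Cl.num, Cl.iS, hS, finrank_T, smul_add, smul_smul, smul_smul]
    have h4 : 2 * (Real.pi : ℂ) * Complex.I * Complex.I = -((2 * Real.pi : ℝ) : ℂ) := by
      rw [mul_assoc, Complex.I_mul_I]; push_cast; ring
    have h5 : 2 * (Real.pi : ℂ) * Complex.I * (((16 * Module.finrank ℝ H : ℕ) : ℂ) / 4) =
        ((4 * Module.finrank ℝ H : ℕ) : ℂ) * (2 * Real.pi * Complex.I) := by
      push_cast; ring
    rw [h4, h5, neg_smul]
    abel
  rw [h2, exp_add_clm ((Commute.one_right _).smul_right _), exp_scalar,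
    Complex.exp_nat_mul_two_pi_mul_I, one_smul, mul_one]
  have h6 := exp_neg_mul ((2 * Real.pi * Complex.I) •
    (C.comap (liftI 16 H.subtypeₗᵢ)).num (lift 16 J'))
  rwa [h1, mul_one] at h6

/-- The gauge spin generator. -/
def Sx (𝔤 : Lie E) (C : Cl (Th E) F) (ξ : E) : F →L[ℂ] F := C.S (lift 16 (𝔤.br ξ))

variable (𝔤 : Lie E) (C : Cl (Th E) F)

theorem Sx_add (ξ η : E) : Sx 𝔤 C (ξ + η) = Sx 𝔤 C ξ + Sx 𝔤 C η := by
  rw [Sx, Sx, Sx, ← C.S_add]
  congr 1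
  ext v a : 2
  simp [lift]

theorem Sx_smul (r : ℝ) (ξ : E) : Sx 𝔤 C (r • ξ) = (r : ℂ) • Sx 𝔤 C ξ := by
  rw [Sx, Sx, ← C.S_smul]
  congr 1
  ext v a : 2
  simp [lift]

theorem Sx_neg (ξ : E) : Sx 𝔤 C (-ξ) = -Sx 𝔤 C ξ := by
  rw [← neg_one_smul ℝ ξ, Sx_smul]; simp

theorem Sx_comm {ξ η : E} (h : 𝔤.br ξ η = 0) : Commute (Sx 𝔤 C ξ) (Sx 𝔤 C η) := by
  have h1 := C.S_lie (isSkew_lift (n := 16) (𝔤.isSkew_br ξ)) (isSkew_lift (𝔤.isSkew_br η))
  have h2 : lift 16 (𝔤.br ξ) ∘ₗ lift 16 (𝔤.br η) - lift 16 (𝔤.br η) ∘ₗ lift 16 (𝔤.br ξ) = 0 := by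
    ext v a : 2
    change 𝔤.br ξ (𝔤.br η (v a)) - 𝔤.br η (𝔤.br ξ (v a)) = 0
    rw [𝔤.jac, h]; simp
  rw [h2, C.S_zero] at h1
  exact sub_eq_zero.1 h1

/-- Schur: an intertwiner of `exp (ad ξ)` is a multiple of `exp (S ξ)`. -/
theorem schur_c [Nontrivial F] (hirr : C.Irr) (ξ : E) (U : F →L[ℂ] F)
    (hU : ∀ v, U * C.θ v = C.θ (lift 16 (rexp' (𝔤.br ξ)).toLinearMap v) * U) :
    ∃ c : ℂ, U = c • NormedSpace.exp (Sx 𝔤 C ξ) := by
  have h1 : ∀ v, NormedSpace.exp (Sx 𝔤 C ξ) * C.θ v =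
      C.θ (lift 16 (rexp' (𝔤.br ξ)).toLinearMap v) * NormedSpace.exp (Sx 𝔤 C ξ) := fun v => by
    rw [Sx, C.exp_S_θ (isSkew_lift (𝔤.isSkew_br ξ)), rexp'_lift]
  obtain ⟨c, hc⟩ := C.schur hirr (NormedSpace.exp (-Sx 𝔤 C ξ) * U) fun v => by
    have h2 : C.θ v * NormedSpace.exp (-Sx 𝔤 C ξ) =
        NormedSpace.exp (-Sx 𝔤 C ξ) * C.θ (lift 16 (rexp' (𝔤.br ξ)).toLinearMap v) := by
      calc C.θ v * NormedSpace.exp (-Sx 𝔤 C ξ)
          = NormedSpace.exp (-Sx 𝔤 C ξ) * (NormedSpace.exp (Sx 𝔤 C ξ) * C.θ v) *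
              NormedSpace.exp (-Sx 𝔤 C ξ) := by rw [← mul_assoc, exp_neg_mul, one_mul]
        _ = _ := by rw [h1, mul_assoc, mul_assoc, exp_mul_neg, mul_one]
    rw [mul_assoc, hU, ← mul_assoc, ← h2, mul_assoc]
  refine ⟨c, ?_⟩
  calc U = NormedSpace.exp (Sx 𝔤 C ξ) * (NormedSpace.exp (-Sx 𝔤 C ξ) * U) := by
        rw [← mul_assoc, exp_mul_neg, one_mul]
    _ = _ := by rw [hc, mul_smul_comm, mul_one]

/-- `lift` of an isometric equivalence. -/
def liftE (n : ℕ) (O : E ≃ₗᵢ[ℝ] E) : T n E ≃ₗᵢ[ℝ] T n E :=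
  LinearIsometryEquiv.piLpCongrRight 2 fun _ => O

theorem liftE_apply (n : ℕ) (O : E ≃ₗᵢ[ℝ] E) (x : T n E) (a : Fin n) :
    liftE n O x a = O (x a) := rfl

theorem liftE_symm_apply (n : ℕ) (O : E ≃ₗᵢ[ℝ] E) (x : T n E) (a : Fin n) :
    (liftE n O).symm x a = O.symm (x a) := rfl

/-- Covariance of the gauge spin generator under an automorphism. -/
theorem Sx_conj (O : E ≃ₗᵢ[ℝ] E) (hO : ∀ u v, O (𝔤.br u v) = 𝔤.br (O u) (O v)) (U : F →L[ℂ] F)
    (hU : ∀ v, U * C.θ v = C.θ (liftE 16 O v) * U) (ξ : E) :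
    U * Sx 𝔤 C ξ = Sx 𝔤 C (O ξ) * U := by
  rw [Sx, C.S_conj U (liftE 16 O) hU, Sx]
  congr 2
  ext v a : 2
  change O (𝔤.br ξ (O.symm (v a))) = 𝔤.br (O ξ) (v a)
  rw [hO, O.apply_symm_apply]

end Br

end Crest.Agent.R330

end
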