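import Crest.Agent.R330.Br.C

/-!
# Row 330, Br/D: the Clifford module of a `FermionRep` and the spin lift
-/

set_option autoImplicit false
set_option linter.unusedSectionVars false

noncomputable section

open MeasureTheory Filter Topology
open scoped InnerProductSpace ContDiff Matrix
open Crest.MathPhysics.MatrixQM

namespace Crest.Agent.R330

namespace Br

variable {N : ℕ} {F : Type} [NormedAddCommGroup F] [InnerProductSpace ℂ F] [FiniteDimensional ℂ F]

/-- The generators as continuous maps. -/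
def th (M : FermionRep N F) (p : Fin 16 × Fin (N ^ 2 - 1)) : F →L[ℂ] F :=
  LinearMap.toContinuousLinearMap (M.θ p.1 p.2)

theorem th_apply (M : FermionRep N F) (p : Fin 16 × Fin (N ^ 2 - 1)) (x : F) :
    th M p x = M.θ p.1 p.2 x := rfl

theorem th_anti (M : FermionRep N F) (p q : Fin 16 × Fin (N ^ 2 - 1)) :
    th M p * th M q + th M q * th M p = if p = q then 1 else 0 := by
  ext1 x
  have h := LinearMap.congr_fun (M.anticomm p.1 p.2 q.1 q.2) x
  by_cases hpq : p = q
  · subst hpq
    simpa [th_apply] using h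
  · have h2 : ¬ (p.1 = q.1 ∧ p.2 = q.2) := fun h' => hpq (Prod.ext h'.1 h'.2)
    rw [if_neg h2] at h
    rw [if_neg hpq]
    simpa [th_apply] using h

/-- The Clifford map. -/
def thL (M : FermionRep N F) : Th (EE N) →ₗ[ℝ] (F →L[ℂ] F) where
  toFun v := ∑ p : Fin 16 × Fin (N ^ 2 - 1), (v p.1 p.2 : ℂ) • th M p
  map_add' u v := by simp [add_smul, Finset.sum_add_distrib]
  map_smul' r v := by
    simp only [PiLp.smul_apply, smul_eq_mul, Complex.ofReal_mul, RingHom.id_apply,
      Finset.smul_sum, mul_smul]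
    rfl

theorem thL_apply (M : FermionRep N F) (v : Th (EE N)) :
    thL M v = ∑ p : Fin 16 × Fin (N ^ 2 - 1), (v p.1 p.2 : ℂ) • th M p := rfl

/-- The Clifford module. -/
def clT (M : FermionRep N F) : Cl (Th (EE N)) F where
  θ := thL M
  sa v := by
    rw [ContinuousLinearMap.isSelfAdjoint_iff_isSymmetric]
    intro x y
    simp only [thL_apply, ContinuousLinearMap.coe_coe, sum_apply,
      smul_apply, sum_inner, inner_sum, inner_smul_left, inner_smul_right,
      Complex.conj_ofReal, th_apply]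
    refine Finset.sum_congr rfl fun p _ => ?_
    rw [M.selfAdjoint p.1 p.2 x y]
  anti u v := by
    have h1 : thL M u * thL M v + thL M v * thL M u =
        ∑ p : Fin 16 × Fin (N ^ 2 - 1), ∑ q : Fin 16 × Fin (N ^ 2 - 1),
          ((u p.1 p.2 : ℂ) * (v q.1 q.2 : ℂ)) • (th M p * th M q + th M q * th M p) := by
      rw [thL_apply, thL_apply, Finset.sum_mul_sum, Finset.sum_mul_sum, Finset.sum_comm
        (f := fun q p => ((v q.1 q.2 : ℂ) • th M q) * ((u p.1 p.2 : ℂ) • th M p)),
        ← Finset.sum_add_distrib]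
      refine Finset.sum_congr rfl fun p _ => ?_
      rw [← Finset.sum_add_distrib]
      refine Finset.sum_congr rfl fun q _ => ?_
      rw [smul_mul_smul_comm, smul_mul_smul_comm, smul_add, mul_comm (v q.1 q.2 : ℂ)]
    rw [h1]
    simp only [th_anti, smul_ite, smul_zero, Finset.sum_ite_eq, Finset.mem_univ, if_true]
    rw [← Finset.sum_smul, Fintype.sum_prod_type]
    congr 1
    simp [PiLp.inner_apply, mul_comm]

theorem clT_θ (M : FermionRep N F) (v : Th (EE N)) :
    (clT M).θ v = ∑ p : Fin 16 × Fin (N ^ 2 - 1), (v p.1 p.2 : ℂ) • th M p := rfl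

theorem clT_θ_tens (M : FermionRep N F) (u : Fin 16 → ℝ) (w : EE N) (x : F) :
    (clT M).θ (tens u w) x = ∑ β, ∑ A, ((u β * w A : ℝ) : ℂ) • M.θ β A x := by
  rw [clT_θ, Fintype.sum_prod_type]
  simp [tens, th_apply]

theorem clT_irr (M : FermionRep N F) : (clT M).Irr := by
  intro W hW
  refine M.irreducible W fun α A x hx => ?_
  have h := hW (tens (Pi.single α 1) (EuclideanSpace.single A 1)) x hx
  rw [clT_θ_tens, Finset.sum_eq_single α, Finset.sum_eq_single A] at h
  · simpa using h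
  · intro B _ hB
    simp [hB]
  · simp
  · intro β _ hβ
    simp [hβ]
  · simp

variable {b : ColorBasis N} {M : FermionRep N F} (R : GaugeAction b M)

/-- The gauge action as continuous maps. -/
def rhoT : SU N →* (F →L[ℂ] F) where
  toFun g := LinearMap.toContinuousLinearMap (R.ρ g)
  map_one' := by ext1 x; simp
  map_mul' g h := by ext1 x; simp

theorem rhoT_apply (g : SU N) (x : F) : rhoT R g x = R.ρ g x := rfl

theorem cj_coord (b : ColorBasis N) (g : SU N) (w : EE N) (B : Fin (N ^ 2 - 1)) :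
    cj b g w B = ∑ A, b.adjMat g B A * w A := by
  rw [cj_apply, co_apply, mT_apply, Matrix.mul_sum, Matrix.sum_mul, Matrix.mul_sum,
    Matrix.trace_sum, Complex.re_sum]
  refine Finset.sum_congr rfl fun A _ => ?_
  simp [ColorBasis.adjMat, Matrix.mul_assoc, mul_comm]

theorem rhoT_θ (hN : 1 ≤ N) (g : SU N) (v : Th (EE N)) :
    rhoT R g * (clT M).θ v = (clT M).θ (liftE 16 (actT b hN g) v) * rhoT R g := by
  ext1 x
  have h1 : ∀ β A, R.ρ g (M.θ β A x) = ∑ B, (b.adjMat g B A : ℂ) • M.θ β B (R.ρ g x) :=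
    fun β A => by
      have h := LinearMap.congr_fun (R.intertwine g β A) x
      simpa using h
  simp only [clT_θ, mul_apply_eq_comp, sum_apply,
    smul_apply, map_sum, map_smul, rhoT_apply, th_apply, h1, liftE_apply,
    actT_apply, cj_coord, Fintype.sum_prod_type, Finset.smul_sum, smul_smul]
  refine Finset.sum_congr rfl fun β _ => ?_
  rw [Finset.sum_comm]
  refine Finset.sum_congr rfl fun B _ => ?_
  rw [← Finset.sum_smul]
  congr 1
  push_cast
  exact Finset.sum_congr rfl fun A _ => mul_comm _ _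

/-- The spin property at `ξ`. -/
def P (hN : 1 ≤ N) (ξ : EE N) : Prop :=
  rhoT R (kx b ξ) = NormedSpace.exp (Sx (lieT b hN) (clT M) ξ)

theorem exists_c [Nontrivial F] (hN : 1 ≤ N) (ξ : EE N) :
    ∃ c : ℂ, rhoT R (kx b ξ) = c • NormedSpace.exp (Sx (lieT b hN) (clT M) ξ) := by
  refine schur_c _ _ (clT_irr M) ξ _ fun v => ?_
  rw [rhoT_θ R hN]
  congr 2
  ext a : 1
  exact act_kx b hN ξ (v a)

theorem kx_act (hN : 1 ≤ N) (g : SU N) (ξ : EE N) :
    kx b (actT b hN g ξ) * g = g * kx b ξ := by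
  apply Subtype.ext
  change NormedSpace.exp (Complex.I • mT b (cj b g ξ)) * (g : Matrix (Fin N) (Fin N) ℂ) =
    (g : Matrix (Fin N) (Fin N) ℂ) * NormedSpace.exp (Complex.I • mT b ξ)
  have h1 := exp_conj_unitary (⟨g, g.2.1⟩ : Matrix.unitaryGroup (Fin N) ℂ) (Complex.I • mT b ξ)
  simp only at h1
  rw [mT_cj b hN, ← Matrix.smul_mul, ← Matrix.mul_smul, h1, Matrix.mul_assoc, su_star_mul,
    Matrix.mul_one]

theorem kx_add (hN : 1 ≤ N) {ξ η : EE N} (h : brT b ξ η = 0) :
    kx b (ξ + η) = kx b ξ * kx b η := by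
  apply Subtype.ext
  change NormedSpace.exp (Complex.I • mT b (ξ + η)) =
    NormedSpace.exp (Complex.I • mT b ξ) * NormedSpace.exp (Complex.I • mT b η)
  have h1 := mT_brT b hN ξ η
  rw [h, map_zero, eq_comm, smul_eq_zero, sub_eq_zero] at h1
  have h2 : Commute (mT b ξ) (mT b η) := h1.resolve_left Complex.I_ne_zero
  rw [map_add, smul_add, Matrix.exp_add_of_commute _ _ ((h2.smul_left _).smul_right _)]

theorem kx_zero : kx b (0 : EE N) = 1 := by
  apply Subtype.ext
  change NormedSpace.exp (Complex.I • mT b 0) = 1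
  rw [map_zero, smul_zero, NormedSpace.exp_zero]

theorem brT_self (ξ : EE N) : brT b ξ ξ = 0 := by
  rw [brT_apply, sub_self, smul_zero, map_zero]

theorem rho_exp_conj (hN : 1 ≤ N) (g : SU N) (ξ : EE N) :
    rhoT R g * NormedSpace.exp (Sx (lieT b hN) (clT M) ξ) =
      NormedSpace.exp (Sx (lieT b hN) (clT M) (actT b hN g ξ)) * rhoT R g := by
  refine exp_conj_clm (V := rhoT R g⁻¹) (by rw [← map_mul, mul_inv_cancel, map_one])
    (by rw [← map_mul, inv_mul_cancel, map_one]) ?_
  exact Sx_conj _ _ (actT b hN g) (fun u v => (grpT b hN).act_br g u v) _ (rhoT_θ R hN g) ξ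

theorem c_act (hN : 1 ≤ N) (g : SU N) (ξ : EE N) {c : ℂ}
    (h : rhoT R (kx b ξ) = c • NormedSpace.exp (Sx (lieT b hN) (clT M) ξ)) :
    rhoT R (kx b (actT b hN g ξ)) =
      c • NormedSpace.exp (Sx (lieT b hN) (clT M) (actT b hN g ξ)) := by
  have h1 : rhoT R (kx b (actT b hN g ξ)) * rhoT R g =
      c • NormedSpace.exp (Sx (lieT b hN) (clT M) (actT b hN g ξ)) * rhoT R g := by
    rw [← map_mul, kx_act, map_mul, h, mul_smul_comm, rho_exp_conj, smul_mul_assoc]
  have h2 := congrArg (· * rhoT R g⁻¹) h1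
  simp only [mul_assoc, ← map_mul, mul_inv_cancel, map_one, mul_one] at h2
  exact h2

theorem P_act (hN : 1 ≤ N) (g : SU N) {ξ : EE N} (h : P R hN ξ) : P R hN (actT b hN g ξ) := by
  have h1 := c_act R hN g ξ (c := 1) (by rw [one_smul]; exact h)
  rwa [one_smul] at h1

theorem P_add (hN : 1 ≤ N) {ξ η : EE N} (h : brT b ξ η = 0) (h1 : P R hN ξ) (h2 : P R hN η) :
    P R hN (ξ + η) := by
  unfold P at *
  rw [kx_add hN h, map_mul, h1, h2, Sx_add, exp_add_clm (Sx_comm _ _ h)]

theorem P_zero (hN : 1 ≤ N) : P R hN 0 := by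
  unfold P
  rw [kx_zero, map_one, ← zero_smul ℝ (0 : EE N), Sx_smul]
  simp

theorem P_of_neg [Nontrivial F] (hN : 1 ≤ N) {ξ : EE N} (g : SU N) (hg : actT b hN g ξ = -ξ) :
    P R hN (ξ + ξ) := by
  obtain ⟨c, hc⟩ := exists_c R hN ξ
  have h1 := c_act R hN g ξ hc
  rw [hg, Sx_neg] at h1
  have h2 : (c * c) • (1 : F →L[ℂ] F) = 1 := by
    have h3 : brT b ξ (-ξ) = 0 := by rw [map_neg, brT_self, neg_zero]
    calc (c * c) • (1 : F →L[ℂ] F) = rhoT R (kx b ξ) * rhoT R (kx b (-ξ)) := by
          rw [hc, h1, smul_mul_smul_comm, exp_mul_neg]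
      _ = 1 := by rw [← map_mul, ← kx_add hN h3, add_neg_cancel, kx_zero, map_one]
  unfold P
  rw [kx_add hN (brT_self ξ), map_mul, hc, smul_mul_smul_comm, Sx_add,
    exp_add_clm (Commute.refl _), ← smul_one_mul, h2, one_mul]

/-- Real diagonal matrices. -/
def dg (d : Fin N → ℝ) : Matrix (Fin N) (Fin N) ℂ := Matrix.diagonal fun a => (d a : ℂ)

theorem mT_co_dg (b : ColorBasis N) (hN : 1 ≤ N) {d : Fin N → ℝ} (hd : ∑ a, d a = 0) :
    mT b (co b (dg d)) = dg d := by
  apply mT_co b hN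
  · rw [dg, Matrix.isHermitian_diagonal_iff]
    intro a
    exact Complex.conj_ofReal _
  · rw [dg, Matrix.trace_diagonal]
    exact_mod_cast hd

theorem dg_add (d d' : Fin N → ℝ) : dg (d + d') = dg d + dg d' := by
  simp [dg]

theorem brT_dg (hN : 1 ≤ N) {d d' : Fin N → ℝ} (hd : ∑ a, d a = 0) (hd' : ∑ a, d' a = 0) :
    brT b (co b (dg d)) (co b (dg d')) = 0 := by
  rw [brT_apply, mT_co_dg b hN hd, mT_co_dg b hN hd']
  simp [dg, mul_comm]

theorem P_root [Nontrivial F] (hN : 1 ≤ N) (a a' : Fin N) (t : ℝ) :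
    P R hN (co b (dg (t • (Pi.single a 1 - Pi.single a' 1)))) := by
  set d : Fin N → ℝ := (t / 2) • (Pi.single a 1 - Pi.single a' 1) with hd
  have hd0 : ∑ c, d c = 0 := by
    simp [hd, ← Finset.mul_sum, Finset.sum_sub_distrib]
  have h1 : t • (Pi.single a 1 - Pi.single a' 1 : Fin N → ℝ) = d + d := by
    rw [hd, ← add_smul, add_halves]
  rw [h1, dg_add, map_add]
  have hu : (Equiv.swap a a').permMatrix ℂ ∈ Matrix.unitaryGroup (Fin N) ℂ := by
    rw [Matrix.mem_unitaryGroup_iff, Matrix.star_eq_conjTranspose, Matrix.conjTranspose_permMatrix,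
      ← Matrix.permMatrix_mul]
    simp
  obtain ⟨g, hg⟩ := (matT b hN).exists_act (grpT b hN) ⟨_, hu⟩
  refine P_of_neg R hN g ?_
  apply mT_injective b
  have h2 := hg (co b (dg d))
  change mT b (actT b hN g _) = _ * mT b _ * _ at h2
  rw [h2, map_neg, mT_co_dg b hN hd0]
  change (Equiv.swap a a').permMatrix ℂ * dg d * star ((Equiv.swap a a').permMatrix ℂ) = _
  rw [Matrix.star_eq_conjTranspose, Matrix.conjTranspose_permMatrix, Equiv.Perm.permMatrix,
    Equiv.Perm.permMatrix, PEquiv.toMatrix_toPEquiv_mul, PEquiv.mul_toMatrix_toPEquiv]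
  have h3 : ∀ c, d (Equiv.swap a a' c) = -d c := by
    intro c
    by_cases h : a = a'
    · simp [hd, h]
    by_cases h4 : c = a
    · subst h4; simp [hd, h, Ne.symm h]
    by_cases h5 : c = a'
    · subst h5; simp [hd, h, Ne.symm h]
    rw [Equiv.swap_apply_of_ne_of_ne h4 h5]
    simp [hd, h4, h5]
  ext c c'
  simp only [Matrix.submatrix_apply, id, dg, Matrix.diagonal_apply, Matrix.neg_apply, h3,
    Equiv.swap_inv, Equiv.symm_swap, EmbeddingLike.apply_eq_iff_eq]
  split_ifs <;> simp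

theorem P_dg [Nontrivial F] (hN : 1 ≤ N) {d : Fin N → ℝ} (hd : ∑ a, d a = 0) :
    P R hN (co b (dg d)) := by
  let a0 : Fin N := ⟨0, hN⟩
  have h1 : ∀ s : Finset (Fin N),
      P R hN (co b (dg (∑ a ∈ s, d a • (Pi.single a 1 - Pi.single a0 1)))) := by
    intro s
    induction s using Finset.induction_on with
    | empty => simpa [dg] using P_zero R hN
    | insert a s ha ih =>
      rw [Finset.sum_insert ha, dg_add, map_add]
      refine P_add R hN (brT_dg hN ?_ ?_) (P_root R hN a a0 (d a)) ih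
      · simp [← Finset.mul_sum, Finset.sum_sub_distrib]
      · simp only [Finset.sum_apply]
        rw [Finset.sum_comm]
        refine Finset.sum_eq_zero fun c _ => ?_
        simp [← Finset.mul_sum, Finset.sum_sub_distrib]
  have h2 : ∑ a, d a • (Pi.single a 1 - Pi.single a0 1 : Fin N → ℝ) = d := by
    simp only [smul_sub, Finset.sum_sub_distrib, ← Finset.sum_smul, hd, zero_smul, sub_zero]
    ext c
    simp [Finset.sum_apply, Pi.single_apply]
  have h3 := h1 Finset.univ
  rwa [h2] at h3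

theorem P_all [Nontrivial F] (hN : 1 ≤ N) (ξ : EE N) : P R hN ξ := by
  obtain ⟨u, d, hd⟩ := exists_diag (mT_herm b ξ)
  have h0 : ∑ a, d a = 0 := by
    have h1 := mT_trace b ξ
    rw [hd, Matrix.trace_mul_cycle, u.2.1, Matrix.one_mul, Matrix.trace_diagonal] at h1
    exact_mod_cast h1
  obtain ⟨g, hg⟩ := (matT b hN).exists_act (grpT b hN) u
  have h2 : ξ = actT b hN g (co b (dg d)) := by
    apply mT_injective b
    have h3 := hg (co b (dg d))
    change mT b (actT b hN g _) = _ * mT b _ * _ at h3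
    rw [h3, mT_co_dg b hN h0, hd, dg]
  rw [h2]
  exact P_act R hN g (P_dg R hN h0)

theorem central (hN : 1 ≤ N) (z : SU N) (hz : ∀ v, actT b hN z v = v) :
    ∃ ζ : ℂ, ζ ^ N = 1 ∧ (z : Matrix (Fin N) (Fin N) ℂ) = ζ • 1 := by
  have hN' : (N : ℂ) ≠ 0 := by exact_mod_cast (by omega : N ≠ 0)
  have h1 : ∀ A : Matrix (Fin N) (Fin N) ℂ, A.IsHermitian → A.trace = 0 →
      (z : Matrix (Fin N) (Fin N) ℂ) * A = A * z := by
    intro A hA hA0
    have h2 := congrArg (mT b) (hz (co b A))
    rw [actT_apply, mT_cj b hN, mT_co b hN hA hA0] at h2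
    conv_rhs => rw [← h2, Matrix.mul_assoc, su_star_mul, Matrix.mul_one]
  have h2 : ∀ A : Matrix (Fin N) (Fin N) ℂ, A.IsHermitian →
      (z : Matrix (Fin N) (Fin N) ℂ) * A = A * z := by
    intro A hA
    have htr : star A.trace = A.trace := by rw [← Matrix.trace_conjTranspose, hA.eq]
    have h3 := h1 (A - (A.trace / N) • 1) (hA.sub (by
      unfold Matrix.IsHermitian
      rw [Matrix.conjTranspose_smul, star_div₀, htr]; simp)) (by
      rw [Matrix.trace_sub, Matrix.trace_smul, Matrix.trace_one]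
      simp only [Fintype.card_fin, smul_eq_mul]
      field_simp
      ring)
    rw [Matrix.mul_sub, Matrix.sub_mul, Matrix.mul_smul, Matrix.smul_mul, Matrix.mul_one,
      Matrix.one_mul] at h3
    exact sub_left_injective h3
  have h3 : ∀ A : Matrix (Fin N) (Fin N) ℂ, (z : Matrix (Fin N) (Fin N) ℂ) * A = A * z := by
    intro A
    have h4 := h2 (A + Aᴴ) (Matrix.isHermitian_add_transpose_self A)
    have h5 := h2 (Complex.I • (A - Aᴴ)) (by
      unfold Matrix.IsHermitian
      rw [Matrix.conjTranspose_smul, Matrix.conjTranspose_sub, Matrix.conjTranspose_conjTranspose]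
      simp only [Complex.star_def, Complex.conj_I, neg_smul, ← smul_neg, neg_sub])
    rw [Matrix.mul_smul, Matrix.smul_mul] at h5
    have h6 := smul_right_injective _ Complex.I_ne_zero h5
    simp only [Matrix.mul_add, Matrix.add_mul, Matrix.mul_sub, Matrix.sub_mul] at h4 h6
    apply smul_right_injective _ (two_ne_zero (α := ℂ))
    simp only [two_smul]
    linear_combination (norm := abel) h4 + h6
  obtain ⟨ζ, hζ⟩ := Matrix.mem_range_scalar_of_commute_single
    (M := (z : Matrix (Fin N) (Fin N) ℂ)) fun i j _ => (h3 _).symm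
  have h4 : (z : Matrix (Fin N) (Fin N) ℂ) = ζ • 1 := by
    rw [← hζ, Matrix.scalar_apply, Matrix.smul_one_eq_diagonal]
  refine ⟨ζ, ?_, h4⟩
  have h5 : (z : Matrix (Fin N) (Fin N) ℂ).det = 1 := z.2.2
  rw [h4, Matrix.det_smul] at h5
  simpa using h5

theorem rho_central [Nontrivial F] (hN : 1 ≤ N) (z : SU N) (hz : ∀ v, actT b hN z v = v) :
    rhoT R z = 1 := by
  obtain ⟨ζ, hζ, hz⟩ := central hN z hz
  have hN0 : N ≠ 0 := by omega
  have hN' : (N : ℝ) ≠ 0 := by exact_mod_cast hN0
  have : NeZero N := ⟨hN0⟩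
  obtain ⟨j, -, hj⟩ := (Complex.isPrimitiveRoot_exp N hN0).eq_pow_of_pow_eq_one hζ
  let a0 : Fin N := ⟨0, hN⟩
  let d : Fin N → ℝ := fun a => 1 / N - if a = a0 then 1 else 0
  have hd : ∑ a, d a = 0 := by
    simp only [d, Finset.sum_sub_distrib, Finset.sum_const, Finset.card_univ, Fintype.card_fin,
      Finset.sum_ite_eq', Finset.mem_univ, if_true, nsmul_eq_mul]
    field_simp
    ring
  have h1 : (kx b ((2 * Real.pi) • co b (dg d)) : Matrix (Fin N) (Fin N) ℂ) =
      Complex.exp (2 * Real.pi * Complex.I / N) • 1 := by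
    rw [kx_coe, map_smul, mT_co_dg b hN hd]
    have h2 : (2 * Real.pi) • dg d = Matrix.diagonal fun a => ((2 * Real.pi * d a : ℝ) : ℂ) := by
      rw [dg, ← Matrix.diagonal_smul]
      congr 1
      ext a
      simp
    rw [h2, exp_I_diag, Matrix.smul_one_eq_diagonal]
    congr 1
    ext a
    by_cases ha : a = a0
    · have h3 : Complex.I * ((2 * Real.pi * d a : ℝ) : ℂ) =
          2 * Real.pi * Complex.I / N - 2 * Real.pi * Complex.I := by
        simp only [d, if_pos ha]; push_cast; ring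
      rw [h3, Complex.exp_sub, Complex.exp_two_pi_mul_I, div_one]
    · congr 1
      simp only [d, if_neg ha]; push_cast; ring
  have h2 : z = kx b ((2 * Real.pi) • co b (dg d)) ^ j := by
    apply Subtype.ext
    rw [hz, SubmonoidClass.coe_pow, h1, smul_pow, one_pow, hj]
  have h3 : ∀ (w : EE N) (a c : Fin N), mT b (brT b (co b (dg d)) w) a c =
      Complex.I * ((d a : ℂ) - d c) * mT b w a c := by
    intro w a c
    rw [mT_brT b hN, mT_co_dg b hN hd]
    simp only [dg, Matrix.smul_apply, Matrix.sub_apply, Matrix.diagonal_mul, Matrix.mul_diagonal,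
      smul_eq_mul]
    ring
  have h4 : rhoT R (kx b ((2 * Real.pi) • co b (dg d))) = 1 := by
    rw [P_all R hN, Sx_smul, Sx]
    refine exp_two_pi_S _ ((lieT b hN).isSkew_br _) fun v => ?_
    apply mT_injective b
    ext a c
    change mT b (brT b _ (brT b _ (brT b _ v))) a c = mT b (-brT b _ v) a c
    rw [map_neg, Matrix.neg_apply, h3, h3, h3]
    have h5 : ((d a : ℂ) - d c) ^ 3 = (d a : ℂ) - d c := by
      simp only [d]
      split_ifs <;> push_cast <;> ring
    linear_combination (Complex.I * ((d a : ℂ) - d c) ^ 3 * mT b v a c) * Complex.I_mul_I -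
      (Complex.I * mT b v a c) * h5
  rw [h2, map_pow, h4, one_pow]

/-- The spin lift. -/
def repT [Nontrivial F] (hN : 1 ≤ N) : Rep (grpT b hN) (clT M) where
  ρ := rhoT R
  cont := R.continuous
  spin k ξ h := by
    have h1 : rhoT R (k * (kx b ξ)⁻¹) = 1 := by
      refine rho_central R hN _ fun v => ?_
      have h2 := h (actT b hN (kx b ξ)⁻¹ v)
      change actT b hN k _ = _ at h2
      rw [map_mul, LinearIsometryEquiv.coe_mul, Function.comp_apply, h2, ← act_kx b hN,
        ← Function.comp_apply (f := actT b hN (kx b ξ)), ← LinearIsometryEquiv.coe_mul, ← map_mul,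
        mul_inv_cancel, map_one]
      rfl
    have h3 : k = k * (kx b ξ)⁻¹ * kx b ξ := by simp
    rw [h3, map_mul, h1, one_mul]
    exact P_all R hN ξ

end Br

end Crest.Agent.R330

end
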