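import Crest.Agent.R330.Br.D

/-!
# Row 330, Br/E: configurations, core vectors and supercharges
-/

set_option autoImplicit false
set_option linter.unusedSectionVars false

noncomputable section

open MeasureTheory Filter Topology
open scoped InnerProductSpace ContDiff Matrix
open Crest.MathPhysics.MatrixQM

namespace Crest.Agent.R330

namespace Br

variable {N : ℕ} {F : Type} [NormedAddCommGroup F] [InnerProductSpace ℂ F] [FiniteDimensional ℂ F]

/-- The identification of configuration spaces, with signs. -/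
def eT (N : ℕ) (s : Fin 9 → ℝ) (hs : ∀ i, s i * s i = 1) : X (EE N) ≃ₗᵢ[ℝ] Cfg N where
  toFun x := WithLp.toLp 2 fun p => s p.1 * x p.1 p.2
  map_add' x y := by ext p; simp [mul_add]
  map_smul' r x := by ext p; simp [mul_left_comm]
  invFun y := WithLp.toLp 2 fun i => WithLp.toLp 2 fun A => s i * y (i, A)
  left_inv x := by ext i A; simp [← mul_assoc, hs]
  right_inv y := by ext p; simp [← mul_assoc, hs]
  norm_map' x := by
    rw [EuclideanSpace.norm_eq, PiLp.norm_eq_of_L2, Fintype.sum_prod_type]
    congr 1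
    refine Finset.sum_congr rfl fun i _ => ?_
    rw [EuclideanSpace.norm_sq_eq]
    refine Finset.sum_congr rfl fun A _ => ?_
    change ‖s i * x i A‖ ^ 2 = _
    rw [Real.norm_eq_abs, Real.norm_eq_abs, sq_abs, sq_abs, mul_pow, sq (s i), hs, one_mul]

theorem eT_apply {s : Fin 9 → ℝ} (hs : ∀ i, s i * s i = 1) (x : X (EE N)) (i : Fin 9)
    (A : Fin (N ^ 2 - 1)) : eT N s hs x (i, A) = s i * x i A := rfl

theorem eT_symm_apply {s : Fin 9 → ℝ} (hs : ∀ i, s i * s i = 1) (y : Cfg N) (i : Fin 9)
    (A : Fin (N ^ 2 - 1)) : (eT N s hs).symm y i A = s i * y (i, A) := rfl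

theorem eT_act (b : ColorBasis N) (hN : 1 ≤ N) {s : Fin 9 → ℝ} (hs : ∀ i, s i * s i = 1)
    (g : SU N) (x : X (EE N)) :
    eT N s hs ((grpT b hN).ax g x) = b.act g (eT N s hs x) := by
  ext ⟨i, A⟩
  rw [eT_apply]
  change s i * cj b g (x i) A = ∑ B, b.adjMat g A B * eT N s hs x (i, B)
  rw [cj_coord, Finset.mul_sum]
  refine Finset.sum_congr rfl fun B _ => ?_
  rw [eT_apply]; ring

theorem core_comp {Y Y' : Type} [NormedAddCommGroup Y] [NormedSpace ℝ Y] [NormedAddCommGroup Y']
    [NormedSpace ℝ Y'] (e : Y ≃ₗᵢ[ℝ] Y') {φ : Y' → F} (h : Core φ) : Core (φ ∘ e) :=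
  ⟨h.1.comp e.contDiff, h.2.comp_homeomorph e.toHomeomorph⟩

theorem core_iff [Nontrivial F] {b : ColorBasis N} {M : FermionRep N F} (R : GaugeAction b M)
    (hN : 1 ≤ N) {s : Fin 9 → ℝ} (hs : ∀ i, s i * s i = 1) (G : GammaNine) (φ : Cfg N → F) :
    IsCoreVec b R φ ↔ Cls (lieT b hN) (clT M) G ∅ (φ ∘ eT N s hs) := by
  rw [cls_iff_ds]
  have hax : ∀ (k : SU N) (ξ : EE N), (∀ v, (grpT b hN).act k v = rexp' ((lieT b hN).br ξ) v) →
      ∀ x, (grpT b hN).ax k x = rexp' (lift 9 ((lieT b hN).br ξ)) x := by
    intro k ξ h x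
    rw [rexp'_lift]
    ext i : 1
    exact h (x i)
  constructor
  · rintro ⟨h1, h2, h3⟩
    refine ⟨core_comp _ ⟨h1, h2⟩, ?_⟩
    rintro p (⟨ξ, rfl⟩ | ⟨q, hq, -⟩) x
    · obtain ⟨k, hk⟩ := (grpT b hN).of_exp ξ
      simp only [Function.comp_apply]
      rw [← hax k ξ hk, eT_act, h3, ← (repT R hN).spin k ξ hk]
      rfl
    · exact hq.elim
  · rintro ⟨h1, h2⟩
    have h3 := core_comp (eT N s hs).symm h1
    have h4 : (φ ∘ eT N s hs) ∘ (eT N s hs).symm = φ := by
      ext y; simp
    rw [h4] at h3
    refine ⟨h3.1, h3.2, fun g y => ?_⟩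
    obtain ⟨ξ, hξ⟩ := (grpT b hN).exp_of g
    have h5 := h2 _ (Or.inl ⟨ξ, rfl⟩) ((eT N s hs).symm y)
    simp only [Function.comp_apply] at h5
    rw [← hax g ξ hξ, eT_act, ← (repT R hN).spin g ξ hξ, LinearIsometryEquiv.apply_symm_apply] at h5
    exact h5

theorem structConst_cyc (b : ColorBasis N) (A B C : Fin (N ^ 2 - 1)) :
    b.structConst A B C =
      -(b.T A * (Complex.I • (b.T B * b.T C - b.T C * b.T B))).trace.re := by
  rw [ColorBasis.structConst, Matrix.mul_smul, Matrix.trace_smul, smul_eq_mul, neg_mul,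
    Complex.neg_re, Matrix.sub_mul, Matrix.mul_sub, Matrix.trace_sub, Matrix.trace_sub,
    Matrix.mul_assoc, Matrix.trace_mul_cycle (b.T B) (b.T A), Matrix.trace_mul_comm (b.T A) (b.T C * _),
    Matrix.trace_mul_cycle (b.T C) (b.T B)]

theorem brT_coord (b : ColorBasis N) (u v : EE N) (A : Fin (N ^ 2 - 1)) :
    brT b u v A = -∑ B, ∑ C, b.structConst A B C * u B * v C := by
  have h1 : ∀ w : EE N, w = ∑ B, w B • EuclideanSpace.single B (1 : ℝ) := fun w => by
    ext A; simp [Pi.single_apply]
  have h2 : ∀ B, mT b (EuclideanSpace.single B (1 : ℝ)) = b.T B := fun B => by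
    rw [mT_apply, Finset.sum_eq_single B] <;> simp +contextual
  conv_lhs => rw [h1 u, h1 v]
  simp only [map_sum, map_smul, LinearMap.sum_apply, LinearMap.smul_apply, brT_apply, h2,
    structConst_cyc, WithLp.ofLp_sum, Finset.sum_apply, PiLp.smul_apply, co_apply, smul_eq_mul,
    Finset.smul_sum]
  rw [Finset.sum_comm, ← Finset.sum_neg_distrib]
  refine Finset.sum_congr rfl fun B _ => ?_
  rw [← Finset.sum_neg_distrib]
  refine Finset.sum_congr rfl fun C _ => ?_
  ring

theorem supercharge_eq (b : ColorBasis N) (M : FermionRep N F) (hN : 1 ≤ N) {s : Fin 9 → ℝ}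
    (hs : ∀ i, s i * s i = 1) (G G' : GammaNine) (hG : ∀ i, G'.γ i = s i • G.γ i) (α : Fin 16)
    (φ : Cfg N → F) (x : X (EE N)) :
    supercharge b M G α φ (eT N s hs x) =
      Qu (lieT b hN) (clT M) G' (Pi.single α 1) (φ ∘ eT N s hs) x := by
  rw [Qu, dirac_eq_sum _ _ _ _ _
    ((EuclideanSpace.basisFun (Fin 9 × Fin (N ^ 2 - 1)) ℝ).map (eT N s hs).symm), supercharge]
  congr 1
  · rw [Fintype.sum_prod_type]
    refine Finset.sum_congr rfl fun i _ => Finset.sum_congr rfl fun A _ => ?_
    have h1 : fderiv ℝ (φ ∘ eT N s hs) x = (fderiv ℝ φ (eT N s hs x)).comp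
        (eT N s hs).toContinuousLinearEquiv.toContinuousLinearMap :=
      (eT N s hs).toContinuousLinearEquiv.comp_right_fderiv
    have h2 : cmap G' (Pi.single α 1) ((eT N s hs).symm (EuclideanSpace.single (i, A) 1)) =
        tens (fun β => G.γ i α β) (EuclideanSpace.single A 1) := by
      ext β B
      have h3 : G.γ i β α = G.γ i α β := by
        conv_lhs => rw [← G.symm i, Matrix.transpose_apply]
      simp only [cmap, mat, tens, LinearMap.coe_mk, AddHom.coe_mk, Matrix.of_apply,
        WithLp.ofLp_sum, Finset.sum_apply, PiLp.smul_apply, eT_symm_apply, smul_eq_mul, hG,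
        Matrix.mulVec_single_one, Matrix.col_apply, Matrix.smul_apply]
      rw [Finset.sum_eq_single i]
      · by_cases hB : B = A
        · subst hB
          simp only [PiLp.single_apply, if_true]
          linear_combination (s i * s i) * h3 + G.γ i α β * hs i
        · simp [hB]
      · intro j _ hj
        simp [hj]
      · simp
    rw [h1, OrthonormalBasis.map_apply, EuclideanSpace.basisFun_apply, h2, clT_θ_tens,
      Finset.smul_sum]
    refine Finset.sum_congr rfl fun β _ => ?_
    rw [Finset.sum_eq_single A]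
    · rw [smul_smul]
      simp
    · intro B _ hB
      simp [hB]
    · simp
  · rw [clT_θ, Fintype.sum_prod_type]
    conv_rhs => rw [Finset.sum_comm]
    simp only [sum_apply, smul_apply, th_apply, Function.comp_apply]
    refine Finset.sum_congr rfl fun A _ => ?_
    have h1 : ∀ β, wpot (lieT b hN) G' (Pi.single α 1) x β A = ∑ B, ∑ C, ∑ i, ∑ j,
        1 / 2 * b.structConst A B C * eT N s hs x (i, B) * eT N s hs x (j, C) * G.γ2 i j α β := by
      intro β
      have h2 : ∑ B, ∑ C, ∑ i, ∑ j,
          1 / 2 * b.structConst A B C * eT N s hs x (i, B) * eT N s hs x (j, C) * G.γ2 i j α β =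
          ∑ i, ∑ j, -(1 / 2 * (s i * s j) * G.γ2 i j α β * brT b (x i) (x j) A) := by
        calc _ = ∑ B, ∑ i, ∑ j, ∑ C, 1 / 2 * b.structConst A B C * eT N s hs x (i, B) *
              eT N s hs x (j, C) * G.γ2 i j α β := by
              refine Finset.sum_congr rfl fun B _ => ?_
              rw [Finset.sum_comm]
              exact Finset.sum_congr rfl fun i _ => Finset.sum_comm
          _ = ∑ i, ∑ j, ∑ B, ∑ C, 1 / 2 * b.structConst A B C * eT N s hs x (i, B) *
              eT N s hs x (j, C) * G.γ2 i j α β := by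
              rw [Finset.sum_comm]
              exact Finset.sum_congr rfl fun i _ => Finset.sum_comm
          _ = _ := by
              refine Finset.sum_congr rfl fun i _ => Finset.sum_congr rfl fun j _ => ?_
              rw [brT_coord, mul_neg, neg_neg, Finset.mul_sum]
              refine Finset.sum_congr rfl fun B _ => ?_
              rw [Finset.mul_sum]
              refine Finset.sum_congr rfl fun C _ => ?_
              rw [eT_apply, eT_apply]; ring
      rw [h2]
      simp only [wpot, tens, PiLp.smul_apply, WithLp.ofLp_sum, Finset.sum_apply, smul_eq_mul, hG,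
        Matrix.mulVec_single_one, Matrix.col_apply, Finset.mul_sum, Matrix.smul_mul,
        Matrix.mul_smul, Matrix.smul_apply]
      refine Finset.sum_congr rfl fun i _ => Finset.sum_congr rfl fun j _ => ?_
      change 1 / 2 * (_ * brT b (x i) (x j) A) = _
      by_cases hij : i = j
      · subst hij
        simp [brT_self]
      · have h3 := congrFun (congrFun (G.clifford i j) α) β
        rw [if_neg hij] at h3
        have h4 : (G.γ i * G.γ j) β α = (G.γ j * G.γ i) α β := by
          conv_rhs => rw [← G.symm i, ← G.symm j, ← Matrix.transpose_mul, Matrix.transpose_apply]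
        simp only [Matrix.add_apply, Matrix.zero_apply] at h3
        simp only [GammaNine.γ2, Matrix.smul_apply, Matrix.sub_apply, smul_eq_mul, h4]
        linear_combination (1 / 4 * (s i * s j) * brT b (x i) (x j) A) * h3
    simp only [h1]
    push_cast
    simp only [Finset.sum_smul]
    symm
    refine Finset.sum_comm.trans (Finset.sum_congr rfl fun B _ => ?_)
    refine Finset.sum_comm.trans (Finset.sum_congr rfl fun C _ => ?_)
    refine Finset.sum_comm.trans (Finset.sum_congr rfl fun i _ => ?_)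
    exact Finset.sum_comm

end Br

end Crest.Agent.R330

end
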