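import Crest.Agent.R330.Br.A

/-!
# Row 330, Br/F: transport of `L²` statements along the bridge
-/

set_option autoImplicit false
set_option linter.unusedSectionVars false

noncomputable section

open MeasureTheory Filter Topology
open scoped InnerProductSpace ContDiff Matrix ENNReal
open Crest.MathPhysics.MatrixQM

namespace Crest.Agent.R330

namespace Br

section Gen

variable {E F : Type} [NormedAddCommGroup E] [InnerProductSpace ℝ E] [FiniteDimensional ℝ E]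
  [MeasurableSpace E] [BorelSpace E]
  [NormedAddCommGroup F] [InnerProductSpace ℂ F] [FiniteDimensional ℂ F]
  {𝔤 : Lie E} {C : Cl (Th E) F} {σ : Spn}

theorem core_Qu (G : GammaNine) (u : Fin 16 → ℝ) {ψ : X E → F} (h : Core ψ) :
    Core (Qu 𝔤 C G u ψ) := h.dirac C _ (contDiff_wpot 𝔤 G u)

theorem core_Qe {ψ : X E → F} (h : Core ψ) : Core (Qe 𝔤 C σ 0 ψ) := by
  rw [Qe_zero]; exact core_Qu _ _ h

theorem eLpNorm_eq_sqrt {Y : Type} [MeasurableSpace Y] {μ : Measure Y} {f : Y → F}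
    (h : MemLp f 2 μ) : eLpNorm f 2 μ = ENNReal.ofReal (√(∫ x, ‖f x‖ ^ 2 ∂μ)) := by
  rw [h.eLpNorm_eq_integral_rpow_norm (by norm_num) (by norm_num), Real.sqrt_eq_rpow]
  simp

theorem eLpNorm_Qα_le {ψ : X E → F} (h : Cls 𝔤 C σ.G ∅ ψ) (α : Fin 16) :
    eLpNorm (Qu 𝔤 C σ.G (Pi.single α 1) ψ) 2 volume ≤ 4 * eLpNorm (Qe 𝔤 C σ 0 ψ) 2 volume := by
  rw [eLpNorm_eq_sqrt (core_Qu _ _ h.1).memLp, eLpNorm_eq_sqrt (core_Qe h.1).memLp]
  have h1 : (4 : ℝ≥0∞) = ENNReal.ofReal 4 := by simp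
  rw [h1, ← ENNReal.ofReal_mul (by norm_num)]
  apply ENNReal.ofReal_le_ofReal
  have h2 : (4 : ℝ) = √16 := by
    rw [show (16 : ℝ) = 4 ^ 2 by norm_num, Real.sqrt_sq (by norm_num)]
  rw [h2, ← Real.sqrt_mul (by norm_num)]
  exact Real.sqrt_le_sqrt (norm_Qα_le 𝔤 C σ h α)

theorem tendsto_Qe_iff {φ : ℕ → X E → F} (h : ∀ n, Cls 𝔤 C σ.G ∅ (φ n)) :
    Tendsto (fun n => eLpNorm (Qe 𝔤 C σ 0 (φ n)) 2 volume) atTop (𝓝 0) ↔
      ∀ α, Tendsto (fun n => eLpNorm (Qu 𝔤 C σ.G (Pi.single α 1) (φ n)) 2 volume) atTop (𝓝 0) := by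
  constructor
  · intro h1 α
    have h2 := ENNReal.Tendsto.const_mul (a := 4) h1 (Or.inr (by norm_num))
    rw [mul_zero] at h2
    exact tendsto_of_tendsto_of_tendsto_of_le_of_le tendsto_const_nhds h2 (fun n => zero_le)
      fun n => eLpNorm_Qα_le (h n) α
  · intro h1
    have h2 : Tendsto (fun n => ∑ α, ‖(σ.s α : ℂ)‖ₑ *
        eLpNorm (Qu 𝔤 C σ.G (Pi.single α 1) (φ n)) 2 volume) atTop (𝓝 (∑ α : Fin 16, 0)) := by
      refine tendsto_finsetSum _ fun α _ => ?_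
      have h3 := ENNReal.Tendsto.const_mul (a := ‖(σ.s α : ℂ)‖ₑ) (h1 α) (Or.inr (by simp))
      rwa [mul_zero] at h3
    rw [Finset.sum_const_zero] at h2
    refine tendsto_of_tendsto_of_tendsto_of_le_of_le tendsto_const_nhds h2 (fun n => zero_le)
      fun n => ?_
    have h4 : Qe 𝔤 C σ 0 (φ n) = ∑ α, (σ.s α : ℂ) • Qu 𝔤 C σ.G (Pi.single α 1) (φ n) := by
      ext x
      rw [Qe_zero, Qu_sum]
      simp
    simp only
    rw [h4]
    refine (eLpNorm_sum_le (fun α _ => ?_) (by norm_num)).trans (Finset.sum_le_sum fun α _ => ?_)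
    · exact ((core_Qu _ _ (h n).1).memLp.const_smul _).1
    · exact eLpNorm_const_smul_le

theorem Cls.sub' {φ ψ : X E → F} (h1 : Cls 𝔤 C σ.G ∅ φ) (h2 : Cls 𝔤 C σ.G ∅ ψ) :
    Cls 𝔤 C σ.G ∅ (φ - ψ) := by
  rw [cls_iff_ds] at *
  have h3 := h1.add (h2.csmul (-1))
  rwa [neg_one_smul, ← sub_eq_add_neg] at h3

theorem Qu_sub' (G : GammaNine) (u : Fin 16 → ℝ) {φ ψ : X E → F} (h1 : Core φ) (h2 : Core ψ) :
    Qu 𝔤 C G u (φ - ψ) = Qu 𝔤 C G u φ - Qu 𝔤 C G u ψ := by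
  ext x
  exact dirac_sub C _ _ (h1.1.differentiable (by simp) x) (h2.1.differentiable (by simp) x)

theorem tendsto_inner {Y : Type} [MeasurableSpace Y] {μ : Measure Y} {f : ℕ → Y → F} {h g : Y → F}
    (hf : ∀ n, MemLp (f n) 2 μ) (hh : MemLp h 2 μ) (hg : MemLp g 2 μ)
    (hl : Tendsto (fun n => eLpNorm (f n - h) 2 μ) atTop (𝓝 0)) :
    Tendsto (fun n => ∫ x, ⟪f n x, g x⟫_ℂ ∂μ) atTop (𝓝 (∫ x, ⟪h x, g x⟫_ℂ ∂μ)) := by
  have h1 : Tendsto (fun n => (hf n).toLp (f n)) atTop (𝓝 (hh.toLp h)) :=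
    (Lp.tendsto_Lp_iff_tendsto_eLpNorm'' f hf h hh).2 hl
  have h2 : ∀ {k : Y → F} (hk : MemLp k 2 μ),
      ⟪hk.toLp k, hg.toLp g⟫_ℂ = ∫ x, ⟪k x, g x⟫_ℂ ∂μ := by
    intro k hk
    rw [L2.inner_def]
    refine integral_congr_ae ?_
    filter_upwards [hk.coeFn_toLp, hg.coeFn_toLp] with x h3 h4
    rw [h3, h4]
  have h3 := h1.inner (𝕜 := ℂ) (tendsto_const_nhds (x := hg.toLp g))
  simpa only [h2] using h3

end Gen

variable {N : ℕ} {F : Type} [NormedAddCommGroup F] [InnerProductSpace ℂ F] [FiniteDimensional ℂ F]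
  {b : ColorBasis N} {M : FermionRep N F} {R : GaugeAction b M} {G : GammaNine}
  {𝔤 : Lie (EE N)} {C : Cl (Th (EE N)) F} {σ : Spn} (e : X (EE N) ≃ₗᵢ[ℝ] Cfg N)

theorem eLpNorm_comp_e (f : Cfg N → F) : eLpNorm (f ∘ e) 2 volume = eLpNorm f 2 volume := by
  have h := (e.toHomeomorph.measurableEmbedding).eLpNorm_map_measure (g := f) (p := 2)
    (μ := volume)
  have h2 : Measure.map e volume = volume := e.measurePreserving.map_eq
  change eLpNorm f 2 (Measure.map e volume) = eLpNorm (f ∘ e) 2 volume at h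
  rw [← h, h2]

theorem memLp_comp_e {f : Cfg N → F} : MemLp (f ∘ e) 2 volume ↔ MemLp f 2 volume := by
  constructor
  · intro h
    have h1 := h.comp_measurePreserving e.symm.measurePreserving
    have h2 : (f ∘ e) ∘ e.symm = f := by ext; simp
    rwa [h2] at h1
  · exact fun h => h.comp_measurePreserving e.measurePreserving

theorem integral_comp_e (f : Cfg N → ℂ) : ∫ x, f (e x) = ∫ y, f y :=
  e.measurePreserving.integral_comp e.toHomeomorph.measurableEmbedding f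

theorem zero_iff (hcore : ∀ φ : Cfg N → F, IsCoreVec b R φ ↔ Cls 𝔤 C σ.G ∅ (φ ∘ e))
    (hQ : ∀ (α : Fin 16) (φ : Cfg N → F) (x : X (EE N)),
      supercharge b M G α φ (e x) = Qu 𝔤 C σ.G (Pi.single α 1) (φ ∘ e) x) (Ψ : Cfg N → F) :
    Ψ ∈ zeroEnergyStates b M R G ↔ Ψ ∘ e ∈ SK (flows 𝔤 C σ.G ∅) (Qe 𝔤 C σ 0) := by
  have hQ' : ∀ α φ, supercharge b M G α φ ∘ e = Qu 𝔤 C σ.G (Pi.single α 1) (φ ∘ e) :=
    fun α φ => funext (hQ α φ)
  constructor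
  · rintro ⟨h1, φ, h2, h3, h4⟩
    refine ⟨(memLp_comp_e e).2 h1, fun n => φ n ∘ e,
      fun n => (cls_iff_ds _ _ _ _ _).1 ((hcore _).1 (h2 n)), ?_, ?_⟩
    · refine h3.congr fun n => ?_
      rw [← eLpNorm_comp_e e]; rfl
    · rw [tendsto_Qe_iff fun n => (hcore _).1 (h2 n)]
      refine fun α => (h4 α).congr fun n => ?_
      rw [← eLpNorm_comp_e e, hQ']
  · rintro ⟨h1, φ, h2, h3, h4⟩
    have hc : ∀ n, (φ n ∘ e.symm) ∘ e = φ n := fun n => by ext x; simp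
    have h5 : ∀ n, Cls 𝔤 C σ.G ∅ (φ n) := fun n => (cls_iff_ds _ _ _ _ _).2 (h2 n)
    refine ⟨(memLp_comp_e e).1 h1, fun n => φ n ∘ e.symm,
      fun n => (hcore _).2 (by rw [hc]; exact h5 n), ?_, fun α => ?_⟩
    · refine h3.congr fun n => ?_
      rw [← eLpNorm_comp_e e]
      congr 1
      ext x; simp
    · refine ((tendsto_Qe_iff h5).1 h4 α).congr fun n => ?_
      rw [← eLpNorm_comp_e e, hQ', hc]

theorem eigen (hcore : ∀ φ : Cfg N → F, IsCoreVec b R φ ↔ Cls 𝔤 C σ.G ∅ (φ ∘ e))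
    (hQ : ∀ (α : Fin 16) (φ : Cfg N → F) (x : X (EE N)),
      supercharge b M G α φ (e x) = Qu 𝔤 C σ.G (Pi.single α 1) (φ ∘ e) x)
    {Ψ : X (EE N) → F} {En : ℝ} (hΨ : MemLp Ψ 2 volume) {φ : ℕ → X (EE N) → F} {h : X (EE N) → F}
    (hφ : ∀ n, Cls 𝔤 C σ.G ∅ (φ n)) (hh : MemLp h 2 volume)
    (h1 : Tendsto (fun n => eLpNorm (φ n - Ψ) 2 volume) atTop (𝓝 0))
    (h2 : Tendsto (fun n => eLpNorm (Qe 𝔤 C σ 0 (φ n) - h) 2 volume) atTop (𝓝 0))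
    (h3 : ∀ ψ, Cls 𝔤 C σ.G ∅ ψ →
      ∫ x, ⟪h x, Qe 𝔤 C σ 0 ψ x⟫_ℂ = (En : ℂ) * ∫ x, ⟪Ψ x, ψ x⟫_ℂ) :
    IsEigenpair b M R G En (Ψ ∘ e.symm) := by
  have hQ' : ∀ α φ, supercharge b M G α φ ∘ e = Qu 𝔤 C σ.G (Pi.single α 1) (φ ∘ e) :=
    fun α φ => funext (hQ α φ)
  have hc : ∀ f : X (EE N) → F, (f ∘ e.symm) ∘ e = f := fun f => by ext x; simp
  refine ⟨(memLp_comp_e e).1 (by rwa [hc]), fun n => φ n ∘ e.symm,
    fun n => (hcore _).2 (by rw [hc]; exact hφ n), ?_, fun α ε hε => ?_, fun ψ hψ => ?_⟩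
  · refine h1.congr fun n => ?_
    rw [← eLpNorm_comp_e e]
    congr 1
    ext x; simp
  · have h4 := ENNReal.Tendsto.const_mul (a := 4) h2 (Or.inr (by norm_num))
    rw [mul_zero] at h4
    have h5 : 0 < ε / 2 := ENNReal.half_pos hε.ne'
    obtain ⟨n₀, hn₀⟩ := eventually_atTop.1 (h4.eventually (gt_mem_nhds h5))
    refine ⟨n₀, fun n hn m hm => ?_⟩
    have h6 : (supercharge b M G α (φ n ∘ e.symm) - supercharge b M G α (φ m ∘ e.symm)) ∘ e =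
        Qu 𝔤 C σ.G (Pi.single α 1) (φ n - φ m) := by
      rw [Qu_sub' _ _ (hφ n).1 (hφ m).1, Pi.sub_comp, hQ', hQ', hc, hc]
    have h7 : Qe 𝔤 C σ 0 (φ n - φ m) = (Qe 𝔤 C σ 0 (φ n) - h) - (Qe 𝔤 C σ 0 (φ m) - h) := by
      rw [Qe_zero, Qu_sub' _ _ (hφ n).1 (hφ m).1, sub_sub_sub_cancel_right]
    rw [← eLpNorm_comp_e e, h6]
    refine (eLpNorm_Qα_le (Cls.sub' (hφ n) (hφ m)) α).trans_lt ?_
    rw [h7]
    have h8 := eLpNorm_sub_le (((core_Qe (𝔤 := 𝔤) (C := C) (σ := σ) (hφ n).1).memLp.sub hh).1)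
      (((core_Qe (𝔤 := 𝔤) (C := C) (σ := σ) (hφ m).1).memLp.sub hh).1) (p := 2) (by norm_num)
    calc _ ≤ 4 * (eLpNorm (Qe 𝔤 C σ 0 (φ n) - h) 2 volume +
          eLpNorm (Qe 𝔤 C σ 0 (φ m) - h) 2 volume) := by gcongr
      _ < ε / 2 + ε / 2 := by
        rw [mul_add]
        exact ENNReal.add_lt_add (hn₀ n hn) (hn₀ m hm)
      _ = ε := ENNReal.add_halves ε
  · have h4 := (hcore ψ).1 hψ
    have h5 := tendsto_inner (fun n => (core_Qe (𝔤 := 𝔤) (C := C) (σ := σ) (hφ n).1).memLp) hh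
      (core_Qe (𝔤 := 𝔤) (C := C) (σ := σ) h4.1).memLp h2
    rw [h3 _ h4] at h5
    have h6 : ∫ x, ⟪(Ψ ∘ e.symm) x, ψ x⟫_ℂ = ∫ x, ⟪Ψ x, (ψ ∘ e) x⟫_ℂ := by
      rw [← integral_comp_e e]
      simp
    rw [h6]
    refine h5.congr fun n => ?_
    rw [← form_sum 𝔤 C σ (hφ n).1 h4]
    congr 1
    refine Finset.sum_congr rfl fun α _ => ?_
    rw [← integral_comp_e e]
    simp only [hQ, hc]

end Br

end Crest.Agent.R330

end
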